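import Vale.Agent.P245.QC.EB

/-! P245 (helper368): row EB of QC for `|f|` -/

open MeasureTheory Set Filter Topology
open scoped ENNReal ContDiff

namespace Vale.Agent.P245.H368

open Vale.Agent.P245.QC Vale.Agent.P245.QC.H440

theorem ebU {n : ℕ} {μ : Measure (EuclideanSpace ℝ (Fin n))} [IsProbabilityMeasure μ] {κ : ℝ}
    {f : EuclideanSpace ℝ (Fin n) → ℝ} (hf : ContDiff ℝ ∞ f) (hfc : HasCompactSupport f)
    {M : ℝ} (hM : 0 ≤ M) (hmed : ∀ t, M < t → μ.real {x | t ≤ |f x|} ≤ 1 / 2)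
    (hsup : ∀ γ w : ℝ → ℝ, Continuous γ → Continuous w →
      (∀ t, 0 ≤ γ t) → (∀ t, 0 ≤ w t) → (∀ t ≤ M, w t = 0) →
      (∀ t, M < t → 0 < μ.real {x | t ≤ |f x|} →
        w t ≤ γ t * √(Real.log (1 / μ.real {x | t ≤ |f x|}))) →
      ∫ x, (∫ t in (0 : ℝ)..|f x|, w t) ∂μ ≤ κ * ∫ x, γ |f x| * ‖gradient f x‖ ∂μ)
    {G : ℝ} (hG : 0 < G) (hint : ∫ x, max (|f x| - M) 0 ^ 2 ∂μ ≤ G) :
    ∫ x, max (|f x| - M) 0 ^ 2 * Real.log (Real.exp 1 + max (|f x| - M) 0 ^ 2 / G) ∂μ ≤
      64 * κ ^ 2 * ∫ x, ‖gradient f x‖ ^ 2 ∂μ := by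
  have hfcont : Continuous fun x => |f x| := hf.continuous.abs
  have hfca : HasCompactSupport fun x => |f x| := hfc.norm
  have h0M : max (0 - M) 0 = 0 := max_eq_right (by linarith)
  -- integrability
  have hint0 : Integrable (fun x => max (|f x| - M) 0 ^ 2) μ := by
    have hc : HasCompactSupport ((fun t : ℝ => max (t - M) 0 ^ 2) ∘ fun x => |f x|) :=
      hfca.comp_left (by simp only [h0M]; norm_num)
    exact Continuous.integrable_of_hasCompactSupport
      ((by fun_prop : Continuous fun t : ℝ => max (t - M) 0 ^ 2).comp hfcont) hc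
  have hPint : Integrable (fun x => Pf M G |f x|) μ := by
    have hc : HasCompactSupport ((Pf M G) ∘ fun x => |f x|) :=
      hfca.comp_left (by unfold Pf; rw [h0M]; simp)
    exact Continuous.integrable_of_hasCompactSupport ((cont_Pf hG).comp hfcont) hc
  have hfd : Continuous (fderiv ℝ f) := hf.continuous_fderiv (by norm_num)
  have hgr : ∀ x, ‖gradient f x‖ = ‖fderiv ℝ f x‖ := fun x => by
    unfold gradient; simp
  have hDc : HasCompactSupport (fun x => ‖fderiv ℝ f x‖) := (hfc.fderiv ℝ).norm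
  have hDint : Integrable (fun x => ‖gradient f x‖ ^ 2) μ := by
    simp_rw [hgr]
    refine Continuous.integrable_of_hasCompactSupport (hfd.norm.pow 2) ?_
    exact hDc.comp_left (g := fun t : ℝ => t ^ 2) (by norm_num)
  have hgint : Integrable (fun x => gf M G |f x| * ‖gradient f x‖) μ := by
    simp_rw [hgr]
    refine Continuous.integrable_of_hasCompactSupport
      (((cont_gf hG).comp hfcont).mul hfd.norm) ?_
    exact hDc.mul_left
  -- apply the functional inequality
  have key := hsup (gf M G) (wf M G) (cont_gf hG) (cont_wf hG) (fun t => gf_nonneg t)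
    (fun t => wf_nonneg hG t)
    (fun t ht => by
      unfold wf
      rw [max_eq_right (by linarith : t - M ≤ 0)]; simp)
    (fun t ht hpos => by
      refine wf_le_gf hG hpos (hmed t ht) ?_
      have h1 := mul_meas_ge_le_integral_of_nonneg (μ := μ)
        (f := fun x => max (|f x| - M) 0 ^ 2) (Eventually.of_forall fun x => by positivity) hint0
        (max (t - M) 0 ^ 2)
      have h2 : μ.real {x | t ≤ |f x|} ≤
          μ.real {x | max (t - M) 0 ^ 2 ≤ max (|f x| - M) 0 ^ 2} := by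
        refine measureReal_mono (fun x hx => ?_)
        have hx' : t ≤ |f x| := hx
        show max (t - M) 0 ^ 2 ≤ max (|f x| - M) 0 ^ 2
        exact pow_le_pow_left₀ (le_max_right _ _) (max_le_max (by linarith) le_rfl) 2
      calc μ.real {x | t ≤ |f x|} * max (t - M) 0 ^ 2
          ≤ μ.real {x | max (t - M) 0 ^ 2 ≤ max (|f x| - M) 0 ^ 2} * max (t - M) 0 ^ 2 := by
            gcongr
        _ = max (t - M) 0 ^ 2 * μ.real {x | max (t - M) 0 ^ 2 ≤ max (|f x| - M) 0 ^ 2} := by ring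
        _ ≤ ∫ x, max (|f x| - M) 0 ^ 2 ∂μ := h1
        _ ≤ G := hint)
  simp_rw [int_wf hG hM] at key
  rw [integral_const_mul] at key
  have hyoung : 8 * κ * ∫ x, gf M G |f x| * ‖gradient f x‖ ∂μ ≤
      1 / 2 * (∫ x, Pf M G |f x| ∂μ) + 32 * κ ^ 2 * ∫ x, ‖gradient f x‖ ^ 2 ∂μ := by
    rw [← integral_const_mul, ← integral_const_mul, ← integral_const_mul, ← integral_add
      (hPint.const_mul _) (hDint.const_mul _)]
    refine integral_mono (hgint.const_mul _) ((hPint.const_mul _).add (hDint.const_mul _))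
      (fun x => ?_)
    simp only
    rw [← gf_sq hG]
    nlinarith [sq_nonneg (gf M G |f x| - 8 * κ * ‖gradient f x‖)]
  have hfin : ∫ x, Pf M G |f x| ∂μ ≤ 64 * κ ^ 2 * ∫ x, ‖gradient f x‖ ^ 2 ∂μ := by
    nlinarith [key, hyoung]
  exact hfin

end Vale.Agent.P245.H368
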