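import Vale.Agent.P245.H368.SupP
import Vale.Agent.P245.H368.EBU

/-! P245 (helper368): the entropy inequality for functions whose super-level sets have convex
components (after row FIN of QC). -/

open MeasureTheory Set Filter Topology
open scoped ENNReal ContDiff

namespace Vale.Agent.P245.H368

open Vale.Agent.P245.QC

theorem finP (hM : StMed) (hP : StPW) {n : ℕ} {Q : Set (EuclideanSpace ℝ (Fin n)) → Prop} {μ : Measure (EuclideanSpace ℝ (Fin n))}
    [IsProbabilityMeasure μ] {κ r₀ P : ℝ} (hκ : 0 < κ) (hr₀ : 0 < r₀)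
    (hIso : IsoP μ Q κ r₀)
    (hPoin : ∀ f : EuclideanSpace ℝ (Fin n) → ℝ, ContDiff ℝ ∞ f → HasCompactSupport f →
      (∫ x, f x ^ 2 ∂μ) - (∫ x, f x ∂μ) ^ 2 ≤ P * ∫ x, ‖gradient f x‖ ^ 2 ∂μ)
    {f : EuclideanSpace ℝ (Fin n) → ℝ} (hf : ContDiff ℝ ∞ f) (hfc : HasCompactSupport f)
    (hq : ∀ᵐ t : ℝ, 0 < t → μ.real {x | t ≤ |f x|} ≤ 1 / 2 → FinP Q {x | t ≤ |f x|}) :
    Entropy μ (fun x => f x ^ 2) ≤ (60 * P + 640 * κ ^ 2) * ∫ x, ‖gradient f x‖ ^ 2 ∂μ := by
  have hcf0 : Continuous f := hf.continuous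
  have hcf : Continuous fun x => |f x| := hf.continuous.abs
  have hfca : HasCompactSupport fun x => |f x| := hfc.norm
  obtain ⟨M, hM0, hMhalf, hMvar⟩ := hM n μ (fun x => |f x|) hcf hfca (fun x => abs_nonneg _)
  have hVar0 := hPoin f hf hfc
  have hq' : ∀ᵐ t : ℝ, M < t → FinP Q {x | t ≤ |f x|} := by
    filter_upwards [hq] with t ht htM
    exact ht (lt_of_le_of_lt hM0 htM) (hMhalf t htM)
  have hEB := fun (G : ℝ) (hG : 0 < G) => ebU (κ := κ) hf hfc hM0 hMhalf
    (supP hκ hr₀ hIso hf hfc hM0 hq' hMhalf) (G := G) hG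
  set I : ℝ := ∫ x, ‖gradient f x‖ ^ 2 ∂μ with hI
  obtain ⟨B, hB⟩ := hfc.exists_bound_of_continuous hcf0
  have hint : ∀ φ : ℝ → ℝ, Continuous φ → Integrable (fun x => φ |f x|) μ := by
    intro φ hφ
    obtain ⟨D, hD⟩ := (isCompact_Icc (a := -B) (b := B)).exists_bound_of_continuousOn
      (f := φ) hφ.continuousOn
    refine Integrable.of_bound (hφ.comp hcf).aestronglyMeasurable D (ae_of_all _ fun x => ?_)
    refine hD _ ⟨?_, by simpa using hB x⟩
    have h1 := abs_nonneg (f x)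
    have h2 : |f x| ≤ B := by simpa using hB x
    linarith
  have hsq : ∀ x, f x ^ 2 = |f x| ^ 2 := fun x => (sq_abs (f x)).symm
  simp only [hsq] at hVar0 ⊢
  have habs : (∫ x, f x ∂μ) ^ 2 ≤ (∫ x, |f x| ∂μ) ^ 2 := by
    rw [← sq_abs (∫ x, f x ∂μ)]
    exact pow_le_pow_left₀ (abs_nonneg _) (abs_integral_le_integral_abs) 2
  have hVar : (∫ x, |f x| ^ 2 ∂μ) - (∫ x, |f x| ∂μ) ^ 2 ≤ P * I := by linarith
  have hi1 : Integrable (fun x => |f x| ^ 2 * Real.log (|f x| ^ 2)) μ :=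
    hint (fun u => u ^ 2 * Real.log (u ^ 2))
      (Real.continuous_mul_log.comp (continuous_pow 2))
  have hi2 : Integrable (fun x => |f x| ^ 2) μ := hint (fun u => u ^ 2) (by fun_prop)
  have hi3 : Integrable (fun x => (|f x| - M) ^ 2) μ := hint (fun u => (u - M) ^ 2) (by fun_prop)
  have hi4 : Integrable (fun x => max (|f x| - M) 0 ^ 2) μ :=
    hint (fun u => max (u - M) 0 ^ 2) (by fun_prop)
  -- the truncated second moment
  set G₀ : ℝ := ∫ x, max (|f x| - M) 0 ^ 2 ∂μ with hG₀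
  have hG₀0 : 0 ≤ G₀ := integral_nonneg fun x => by positivity
  have hG₀le : G₀ ≤ ∫ x, (|f x| - M) ^ 2 ∂μ := by
    refine integral_mono hi4 hi3 fun x => ?_
    show max (|f x| - M) 0 ^ 2 ≤ (|f x| - M) ^ 2
    rcases le_total (|f x| - M) 0 with h | h
    · rw [max_eq_right h]
      nlinarith [sq_nonneg (|f x| - M)]
    · rw [max_eq_left h]
  refine le_of_forall_pos_le_add fun ε hε => ?_
  have hε' : 0 < ε / 10 := by positivity
  set G : ℝ := G₀ + ε / 10 with hG
  have hGpos : 0 < G := by positivity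
  have hEBG := hEB G hGpos (by linarith)
  have hi5 : Integrable (fun x => max (|f x| - M) 0 ^ 2 *
      Real.log (Real.exp 1 + max (|f x| - M) 0 ^ 2 / G)) μ := by
    refine hint (fun u => max (u - M) 0 ^ 2 * Real.log (Real.exp 1 + max (u - M) 0 ^ 2 / G)) ?_
    refine Continuous.mul (by fun_prop) (Continuous.log (by fun_prop) fun u => ?_)
    have h1 := Real.exp_pos 1
    have h2 : 0 ≤ max (u - M) 0 ^ 2 / G := by positivity
    exact ne_of_gt (by linarith)
  set c : ℝ := M ^ 2 + G with hc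
  have hcpos : 0 < c := by positivity
  set m : ℝ := ∫ x, |f x| ^ 2 ∂μ with hm
  have hm0 : 0 ≤ m := integral_nonneg fun x => by positivity
  have hlog : m * Real.log c - m * Real.log m ≤ c - m := by
    rcases hm0.eq_or_lt with h | h
    · rw [← h]
      simpa using hcpos.le
    · have h1 : Real.log (c / m) ≤ c / m - 1 := Real.log_le_sub_one_of_pos (by positivity)
      rw [Real.log_div hcpos.ne' h.ne'] at h1
      have h2 := mul_le_mul_of_nonneg_left h1 h.le
      have h3 : m * (c / m - 1) = c - m := by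
        field_simp
      nlinarith [h2, h3]
  have hleft : ∫ x, (|f x| ^ 2 * Real.log (|f x| ^ 2) - |f x| ^ 2 * Real.log c - |f x| ^ 2 + c) ∂μ =
      (∫ x, |f x| ^ 2 * Real.log (|f x| ^ 2) ∂μ) - m * Real.log c - m + c := by
    have hj1 : Integrable (fun x => |f x| ^ 2 * Real.log c) μ := hi2.mul_const _
    have hj2 : Integrable (fun x => |f x| ^ 2 * Real.log (|f x| ^ 2) - |f x| ^ 2 * Real.log c) μ :=
      hi1.sub hj1
    have hj3 : Integrable
        (fun x => |f x| ^ 2 * Real.log (|f x| ^ 2) - |f x| ^ 2 * Real.log c - |f x| ^ 2) μ :=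
      hj2.sub hi2
    rw [integral_add hj3 (integrable_const c), integral_sub hj2 hi2, integral_sub hi1 hj1,
      integral_mul_const]
    simp [hm]
  have hright : ∫ x, (10 * (|f x| - M) ^ 2 + 10 * G +
      10 * (max (|f x| - M) 0 ^ 2 * Real.log (Real.exp 1 + max (|f x| - M) 0 ^ 2 / G))) ∂μ =
      10 * (∫ x, (|f x| - M) ^ 2 ∂μ) + 10 * G +
      10 * ∫ x, max (|f x| - M) 0 ^ 2 * Real.log (Real.exp 1 + max (|f x| - M) 0 ^ 2 / G) ∂μ := by
    have hj1 : Integrable (fun x => 10 * (|f x| - M) ^ 2) μ := hi3.const_mul 10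
    have hj2 : Integrable (fun x => 10 * (|f x| - M) ^ 2 + 10 * G) μ :=
      hj1.add (integrable_const _)
    have hj3 : ∫ _x : EuclideanSpace ℝ (Fin n), 10 * G ∂μ = 10 * G := by
      rw [integral_const]
      simp
    rw [integral_add hj2 (hi5.const_mul 10), integral_add hj1 (integrable_const _),
      integral_const_mul, integral_const_mul 10 (fun x => max (|f x| - M) 0 ^ 2 *
        Real.log (Real.exp 1 + max (|f x| - M) 0 ^ 2 / G)), hj3]
  have hmono : ∫ x, (|f x| ^ 2 * Real.log (|f x| ^ 2) - |f x| ^ 2 * Real.log c - |f x| ^ 2 + c) ∂μ ≤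
      ∫ x, (10 * (|f x| - M) ^ 2 + 10 * G +
      10 * (max (|f x| - M) 0 ^ 2 * Real.log (Real.exp 1 + max (|f x| - M) 0 ^ 2 / G))) ∂μ := by
    refine integral_mono (((hi1.sub (hi2.mul_const _)).sub hi2).add (integrable_const c))
      (((hi3.const_mul 10).add (integrable_const _)).add (hi5.const_mul 10)) fun x => ?_
    exact hP M G |f x| hM0 hGpos (abs_nonneg _)
  rw [hleft, hright] at hmono
  show (∫ x, |f x| ^ 2 * Real.log (|f x| ^ 2) ∂μ) -
    (∫ x, |f x| ^ 2 ∂μ) * Real.log (∫ x, |f x| ^ 2 ∂μ) ≤ _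
  rw [← hm]
  have hVar3 : ∫ x, (|f x| - M) ^ 2 ∂μ ≤ 3 * (P * I) := by linarith
  nlinarith [hmono, hVar3, hEBG, hG₀le, hlog]

end Vale.Agent.P245.H368
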