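import Vale.Agent.P245.H368.StarLsi
import Vale.Agent.P245.K.All
import Vale.Agent.P245.H847.HandIn

/-! P245 (helper368): star-shaped sets with holes (the argument for holes is helper316's). -/

open MeasureTheory Set Filter Topology
open scoped ENNReal ContDiff

namespace Vale.Agent.P245.H368

open Vale.Agent.P245.QC Vale.Agent.P245.H68

variable {n : ℕ}

/-- `A` arises from a closed set `B`, star-shaped with respect to all points of a closed convex set
`K` with `μ(B)^m ≤ μ(K)`, by removing a subset of the interior (holes); if holes are removed, then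
`μ(B) ≤ 1/2`. -/
def StarHoles (μ : Measure (EuclideanSpace ℝ (Fin n))) (m : ℝ)
    (A : Set (EuclideanSpace ℝ (Fin n))) : Prop :=
  ∃ B K : Set (EuclideanSpace ℝ (Fin n)), IsClosed B ∧ IsClosed K ∧ Convex ℝ K ∧
    (∀ x ∈ B, ∀ y ∈ K, segment ℝ x y ⊆ B) ∧ μ.real B ^ m ≤ μ.real K ∧
    frontier B ⊆ A ∧ A ⊆ B ∧ (μ.real B ≤ 1 / 2 ∨ A = B)

/-- `p √log(1/p)` increases on `[0, 1/2]` (helper316) -/
theorem prof_mono {p q : ℝ} (hp : 0 < p) (hpq : p ≤ q) (hq : q ≤ 1 / 2) :
    p * √(Real.log (1 / p)) ≤ q * √(Real.log (1 / q)) := by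
  have hq0 : 0 < q := hp.trans_le hpq
  have e1 : p * √(Real.log (1 / p)) = √(p ^ 2 * Real.log (1 / p)) := by
    rw [Real.sqrt_mul (sq_nonneg p), Real.sqrt_sq hp.le]
  have e2 : q * √(Real.log (1 / q)) = √(q ^ 2 * Real.log (1 / q)) := by
    rw [Real.sqrt_mul (sq_nonneg q), Real.sqrt_sq hq0.le]
  rw [e1, e2]
  apply Real.sqrt_le_sqrt
  set X := Real.log (1 / p) with hX
  set Y := Real.log (1 / q) with hY
  have hX' : X = - Real.log p := by rw [hX, one_div, Real.log_inv]
  have hY' : Y = - Real.log q := by rw [hY, one_div, Real.log_inv]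
  have hYX : Y ≤ X := by
    rw [hX', hY']
    linarith [Real.log_le_log hp hpq]
  have hY2 : 1 / 2 ≤ Y := by
    have h1 : Real.log 2 ≤ Y := by
      apply Real.log_le_log (by norm_num)
      rw [le_div_iff₀ hq0]; linarith
    linarith [Real.log_two_gt_d9]
  have hr : q = p * Real.exp (X - Y) := by
    have : X - Y = Real.log (q / p) := by rw [Real.log_div hq0.ne' hp.ne', hX', hY']; ring
    rw [this, Real.exp_log (by positivity)]
    field_simp
  have h2 : 1 + 2 * (X - Y) ≤ Real.exp (X - Y) ^ 2 := by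
    have : Real.exp (X - Y) ^ 2 = Real.exp (2 * (X - Y)) := by
      rw [← Real.exp_nat_mul]; norm_num
    rw [this]
    linarith [Real.add_one_le_exp (2 * (X - Y))]
  have h3 : X ≤ Real.exp (X - Y) ^ 2 * Y := by
    have : X ≤ (1 + 2 * (X - Y)) * Y := by nlinarith
    exact this.trans (mul_le_mul_of_nonneg_right h2 (by linarith))
  calc p ^ 2 * X ≤ p ^ 2 * (Real.exp (X - Y) ^ 2 * Y) :=
        mul_le_mul_of_nonneg_left h3 (sq_nonneg p)
    _ = q ^ 2 * Y := by
        conv_rhs => rw [hr]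
        ring

theorem iso_holes {μ : Measure (EuclideanSpace ℝ (Fin n))} [IsProbabilityMeasure μ] {κ r₀ m : ℝ}
    (hκ : 0 < κ) (hiso : IsoP μ (StarSet μ m) κ r₀) : IsoP μ (StarHoles μ m) κ r₀ := by
  intro A hA hAc hA0 hA2 r hr hr0
  obtain ⟨B, K, hBc, hKc, hKconv, hseg, hm, hfr, hAB, hor⟩ := hA
  have hB2 : μ.real B ≤ 1 / 2 := by
    rcases hor with h | h
    · exact h
    · rw [← h]; exact hA2
  have hAB' : μ.real A ≤ μ.real B := measureReal_mono hAB (measure_ne_top _ _)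
  have hB0 : 0 < μ.real B := hA0.trans_le hAB'
  have h1 := hiso B ⟨K, hKconv, hKc, hseg, hm⟩ hBc hB0 hB2 r hr hr0
  have hprof := prof_mono hA0 hAB' hB2
  -- the outer collar
  have hcol : Metric.cthickening r B \ B ⊆ Metric.cthickening r A := by
    rintro x ⟨hx, hxB⟩
    rw [hBc.cthickening_eq_biUnion_closedBall hr] at hx
    obtain ⟨y, hy, hxy⟩ := mem_iUnion₂.1 hx
    obtain ⟨z, hz2, hz1⟩ := exists_mem_frontier_infDist_compl_eq_dist (x := x) (s := Bᶜ) hxB
      (by
        intro h0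
        have : y ∈ Bᶜ := by rw [h0]; exact mem_univ y
        exact this hy)
    rw [compl_compl] at hz1
    rw [frontier_compl] at hz2
    have hzr : dist x z ≤ r := by
      rw [← hz1]
      exact (Metric.infDist_le_dist_of_mem hy).trans (Metric.mem_closedBall.1 hxy)
    exact Metric.mem_cthickening_of_dist_le x z r A (hfr hz2) hzr
  have hsubs : A ∪ (Metric.cthickening r B \ B) ⊆ Metric.cthickening r A :=
    union_subset (Metric.self_subset_cthickening A) hcol
  have hdisj : Disjoint A (Metric.cthickening r B \ B) :=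
    disjoint_left.2 fun x hx hx2 => hx2.2 (hAB hx)
  have hmeas : MeasurableSet (Metric.cthickening r B \ B) :=
    Metric.isClosed_cthickening.measurableSet.diff hBc.measurableSet
  have h2 : μ.real A + μ.real (Metric.cthickening r B \ B) ≤ μ.real (Metric.cthickening r A) := by
    rw [← measureReal_union hdisj hmeas]
    exact measureReal_mono hsubs (measure_ne_top _ _)
  have h3 : μ.real (Metric.cthickening r B \ B) = μ.real (Metric.cthickening r B) - μ.real B :=
    measureReal_sdiff (Metric.self_subset_cthickening B) hBc.measurableSet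
  have h4 : r / κ * (μ.real A * √(Real.log (1 / μ.real A)))
      ≤ r / κ * (μ.real B * √(Real.log (1 / μ.real B))) :=
    mul_le_mul_of_nonneg_left hprof (by positivity)
  have e1 : μ.real A * (1 + r * √(Real.log (1 / μ.real A)) / κ)
      = μ.real A + r / κ * (μ.real A * √(Real.log (1 / μ.real A))) := by ring
  have e2 : μ.real B * (1 + r * √(Real.log (1 / μ.real B)) / κ)
      = μ.real B + r / κ * (μ.real B * √(Real.log (1 / μ.real B))) := by ring
  rw [e1]
  rw [e2] at h1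
  linarith

variable {μ : Measure (EuclideanSpace ℝ (Fin n))}

theorem lsi_holes [IsProbabilityMeasure μ] {a C0 P m : ℝ} (ha : 0 < a) (hC0 : 0 < C0)
    (hK : H607.KLS C0) (hlc : HasLogConcaveDensity μ) (hsub : LinearlySubgaussian μ a)
    (hP0 : 0 ≤ P) (hm : 1 ≤ m)
    (hP : ∀ f : EuclideanSpace ℝ (Fin n) → ℝ, ContDiff ℝ ∞ f → HasCompactSupport f →
      (∫ x, f x ^ 2 ∂μ) - (∫ x, f x ∂μ) ^ 2 ≤ P * ∫ x, ‖gradient f x‖ ^ 2 ∂μ)
    {f : EuclideanSpace ℝ (Fin n) → ℝ} (hf : ContDiff ℝ ∞ f) (hfc : HasCompactSupport f) {T : ℝ}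
    (hq : ∀ᵐ t : ℝ, T < t → FinP (StarHoles μ m) {x | t ≤ |f x|}) :
    Entropy μ (fun x => f x ^ 2) ≤
      (280 * P + 655360 * (m * ((8 * C0 + 26) * a ^ 2))) *
        (1 + Real.log (1 + T ^ 2 / ∫ x, f x ^ 2 ∂μ)) * ∫ x, ‖gradient f x‖ ^ 2 ∂μ := by
  have hlog : 0 < Real.log 2 := Real.log_pos (by norm_num)
  have hm0 : 0 < m := by linarith
  have h := high_P (n := n) QC.H12.med QC.H12.pw (Q := StarHoles μ m) (μ := μ)
    (κ := 16 * √(m * ((8 * C0 + 26) * a ^ 2)))
    (r₀ := 8 * √(m * ((8 * C0 + 26) * a ^ 2) * Real.log 2)) (P := P) (by positivity)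
    (by positivity) hP0 (iso_holes (by positivity) (iso_star ha hC0 hm hK hlc hsub)) hP hf hfc hq
  refine h.trans (le_of_eq ?_)
  have e : (16 * √(m * ((8 * C0 + 26) * a ^ 2))) ^ 2 = 256 * (m * ((8 * C0 + 26) * a ^ 2)) := by
    rw [mul_pow, Real.sq_sqrt (by positivity)]; norm_num
  rw [e]; ring

/-- final form, one absolute constant -/
theorem star_final :
    ∃ C : ℝ, 0 < C ∧ ∀ (n : ℕ) (μ : Measure (EuclideanSpace ℝ (Fin n))) [IsProbabilityMeasure μ],
      HasLogConcaveDensity μ → ∀ a : ℝ, 0 < a → LinearlySubgaussian μ a → ∀ m : ℝ, 1 ≤ m →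
      (∀ A : Set (EuclideanSpace ℝ (Fin n)), IsClosed A → StarHoles μ m A → 0 < μ.real A →
        μ.real A ≤ 1 / 2 → ∀ r : ℝ, 0 ≤ r → r ≤ a →
        μ.real A * (1 + r * √(Real.log (1 / μ.real A)) / (C * √m * a)) ≤
          μ.real (Metric.cthickening r A)) ∧
      (∀ f : EuclideanSpace ℝ (Fin n) → ℝ, ContDiff ℝ ∞ f → HasCompactSupport f → ∀ T : ℝ,
        (∀ᵐ t : ℝ, T < t → ∃ (N : ℕ) (A : Fin N → Set (EuclideanSpace ℝ (Fin n))),
          (∀ i, StarHoles μ m (A i)) ∧ (∀ i, IsClosed (A i)) ∧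
          (∀ i j, i ≠ j → Disjoint (A i) (A j)) ∧ {x | t ≤ |f x|} = ⋃ i, A i) →
        Entropy μ (fun x => f x ^ 2) ≤
          C * m * (1 + Real.log (1 + T ^ 2 / ∫ x, f x ^ 2 ∂μ)) * a ^ 2 *
            ∫ x, ‖gradient f x‖ ^ 2 ∂μ) := by
  obtain ⟨C0, hC0, hK⟩ := Vale.Agent.P245.K.kls_final
  obtain ⟨B, hB⟩ : ∃ B, B = 8 * C0 + 26 := ⟨_, rfl⟩
  have hB26 : 26 ≤ B := by rw [hB]; linarith
  have hB0 : 0 < B := by linarith
  have hB1 : √B ≤ B := by
    rw [Real.sqrt_le_left hB0.le]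
    nlinarith
  refine ⟨280 * (200 * C0) + 655360 * B, by positivity, fun n μ _ hlc a ha hsub m hm => ?_⟩
  have hm0 : 0 < m := by linarith
  have hl2 : (0.6931471803 : ℝ) < Real.log 2 := Real.log_two_gt_d9
  refine ⟨fun A hAc hA hp hp2 r hr hra => ?_, fun f hf hfc T hq => ?_⟩
  · have h1 := iso_holes (by positivity) (iso_star ha hC0 hm hK hlc hsub) A hA hAc hp hp2 r hr (by
      rw [← hB]
      have h2 : a ≤ √(m * (B * a ^ 2) * Real.log 2) := by
        apply Real.le_sqrt_of_sq_le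
        have h3 : 1 ≤ m * B * Real.log 2 := by
          have h4 : 1 ≤ B * Real.log 2 := by nlinarith
          have h5 : B * Real.log 2 ≤ m * (B * Real.log 2) := by nlinarith
          linarith
        calc a ^ 2 = 1 * a ^ 2 := (one_mul _).symm
          _ ≤ m * B * Real.log 2 * a ^ 2 := mul_le_mul_of_nonneg_right h3 (sq_nonneg a)
          _ = m * (B * a ^ 2) * Real.log 2 := by ring
      have h6 := Real.sqrt_nonneg (m * (B * a ^ 2) * Real.log 2)
      linarith)
    refine le_trans ?_ h1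
    apply mul_le_mul_of_nonneg_left _ hp.le
    rw [← hB]
    have hs : √(m * (B * a ^ 2)) = √m * (√B * a) := by
      rw [Real.sqrt_mul hm0.le, Real.sqrt_mul hB0.le, Real.sqrt_sq ha.le]
    have hsm : 0 < √m := Real.sqrt_pos.2 hm0
    have hsB : 0 < √B := Real.sqrt_pos.2 hB0
    have h2 : r * √(Real.log (1 / μ.real A)) / ((280 * (200 * C0) + 655360 * B) * √m * a) ≤
        r * √(Real.log (1 / μ.real A)) / (16 * √(m * (B * a ^ 2))) := by
      apply div_le_div_of_nonneg_left (by positivity) (by positivity)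
      rw [hs]
      calc 16 * (√m * (√B * a)) = 16 * √B * (√m * a) := by ring
        _ ≤ (280 * (200 * C0) + 655360 * B) * (√m * a) := by
            apply mul_le_mul_of_nonneg_right _ (by positivity)
            nlinarith
        _ = (280 * (200 * C0) + 655360 * B) * √m * a := by ring
    linarith
  · have hPoin : ∀ u : EuclideanSpace ℝ (Fin n) → ℝ, ContDiff ℝ ∞ u → HasCompactSupport u →
        (∫ x, u x ^ 2 ∂μ) - (∫ x, u x ∂μ) ^ 2 ≤
          200 * C0 * a ^ 2 * ∫ x, ‖gradient u x‖ ^ 2 ∂μ := by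
      intro u hu huc
      exact ((H847.handin hC0 hK n μ hlc (fun i => ∫ x, x i ∂μ)
        (fun i j => ∫ x, (x i - ∫ y, y i ∂μ) * (x j - ∫ y, y j ∂μ) ∂μ) (fun _ => rfl)
        (fun _ _ => rfl) u hu huc).2.2 a ha hsub).1
    have h1 := lsi_holes (P := 200 * C0 * a ^ 2) ha hC0 hK hlc hsub (by positivity) hm hPoin hf hfc
      (T := T) hq
    refine h1.trans ?_
    rw [← hB]
    have hI0 : 0 ≤ ∫ x, ‖gradient f x‖ ^ 2 ∂μ := integral_nonneg fun x => by positivity
    have hF0 : 0 ≤ ∫ x, f x ^ 2 ∂μ := integral_nonneg fun x => sq_nonneg _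
    have hl0 : 0 ≤ Real.log (1 + T ^ 2 / ∫ x, f x ^ 2 ∂μ) :=
      Real.log_nonneg (by linarith [div_nonneg (sq_nonneg T) hF0])
    have h2 : 280 * (200 * C0 * a ^ 2) + 655360 * (m * (B * a ^ 2)) ≤
        (280 * (200 * C0) + 655360 * B) * m * a ^ 2 := by
      have h3 : 0 ≤ C0 * a ^ 2 * (m - 1) :=
        mul_nonneg (by positivity) (by linarith)
      nlinarith
    calc (280 * (200 * C0 * a ^ 2) + 655360 * (m * (B * a ^ 2))) *
          (1 + Real.log (1 + T ^ 2 / ∫ x, f x ^ 2 ∂μ)) * ∫ x, ‖gradient f x‖ ^ 2 ∂μ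
        ≤ ((280 * (200 * C0) + 655360 * B) * m * a ^ 2) *
          (1 + Real.log (1 + T ^ 2 / ∫ x, f x ^ 2 ∂μ)) * ∫ x, ‖gradient f x‖ ^ 2 ∂μ := by
          apply mul_le_mul_of_nonneg_right _ hI0
          exact mul_le_mul_of_nonneg_right h2 (by linarith)
      _ = _ := by ring

end Vale.Agent.P245.H368
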