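import Vale.Agent.P245.QC.Iso

/-! P245 (helper368): isoperimetric inequality for sets which are star-shaped with respect to a
convex kernel (after row ISO of QC, helper171). -/

open MeasureTheory Set Filter Topology
open scoped ENNReal ContDiff

namespace Vale.Agent.P245.H368

open Vale.Agent.P245.QC Vale.Agent.P245.QC.IsoAux

/-- closed convex kernel `A₀` of `A`, of measure at least `μ(A)^m` -/
def StarSet {n : ℕ} (μ : Measure (EuclideanSpace ℝ (Fin n))) (m : ℝ)
    (A : Set (EuclideanSpace ℝ (Fin n))) : Prop :=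
  ∃ A₀ : Set (EuclideanSpace ℝ (Fin n)), Convex ℝ A₀ ∧ IsClosed A₀ ∧
    (∀ x ∈ A, ∀ y ∈ A₀, segment ℝ x y ⊆ A) ∧ μ.real A ^ m ≤ μ.real A₀

theorem star_iso (hBM : StBM) {n : ℕ} {μ : Measure (EuclideanSpace ℝ (Fin n))}
    [IsProbabilityMeasure μ] (hlc : HasLogConcaveDensity μ) {K₀ m : ℝ} (hK₀ : 0 < K₀)
    (hm : 1 ≤ m) (hCC : CC μ K₀)
    (hint : ∀ F : EuclideanSpace ℝ (Fin n) → ℝ, LipschitzWith 1 F → Integrable F μ)
    {A : Set (EuclideanSpace ℝ (Fin n))} (hc : IsClosed A) (hstar : StarSet μ m A)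
    (hp : 0 < μ.real A) (hp2 : μ.real A ≤ 1 / 2) {r : ℝ} (hr : 0 ≤ r)
    (hr0 : r ≤ 8 * √(m * K₀ * Real.log 2)) :
    μ.real A * (1 + r * √(Real.log (1 / μ.real A)) / (16 * √(m * K₀))) ≤
      μ.real (Metric.cthickening r A) := by
  obtain ⟨A₀, hA₀, hc₀, hseg, hmA⟩ := hstar
  have hm0 : 0 < m := by linarith
  obtain ⟨K, hKd⟩ : ∃ K, K = m * K₀ := ⟨_, rfl⟩
  rw [← hKd] at hr0 ⊢
  have hK : 0 < K := by rw [hKd]; positivity
  have hne : A.Nonempty := by
    rw [nonempty_iff_ne_empty]
    intro h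
    rw [h] at hp
    simp at hp
  have hp₀ : 0 < μ.real A₀ := lt_of_lt_of_le (Real.rpow_pos_of_pos hp m) hmA
  have hne₀ : A₀.Nonempty := by
    rw [nonempty_iff_ne_empty]
    intro h
    rw [h] at hp₀
    simp at hp₀
  have hsub : A₀ ⊆ A := by
    intro y hy
    obtain ⟨x, hx⟩ := hne
    exact hseg x hx y hy (right_mem_segment ℝ x y)
  have hp₀2 : μ.real A₀ ≤ 1 / 2 := (measureReal_mono hsub).trans hp2
  have hmean0 := mean_le hK₀ hCC hA₀ hc₀ hp₀ hp₀2
  have hA0 : μ.real A ≤ μ.real (Metric.cthickening r A) :=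
    measureReal_mono (Metric.self_subset_cthickening A)
  rcases hr.eq_or_lt with h0 | hrpos
  · rw [← h0] at hA0 ⊢
    simpa using hA0
  set p := μ.real A with hpdef
  set L := Real.log (1 / p) with hL
  have hlog2 : 0 < Real.log 2 := Real.log_pos (by norm_num)
  have hLlog : Real.log 2 ≤ L := by
    apply Real.log_le_log (by norm_num)
    rw [le_div_iff₀ hp]; linarith
  have hLpos : 0 < L := lt_of_lt_of_le hlog2 hLlog
  have hmean : ∫ x, Metric.infDist x A₀ ∂μ ≤ 2 * √(K * L) := by
    refine hmean0.trans ?_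
    have h1 : Real.log (1 / μ.real A₀) ≤ m * L := by
      have h2 : Real.log (p ^ m) ≤ Real.log (μ.real A₀) :=
        Real.log_le_log (Real.rpow_pos_of_pos hp m) hmA
      rw [Real.log_rpow hp] at h2
      rw [hL, one_div, one_div, Real.log_inv, Real.log_inv]
      linarith
    have h3 : K₀ * Real.log (1 / μ.real A₀) ≤ K * L := by
      rw [hKd]
      calc K₀ * Real.log (1 / μ.real A₀) ≤ K₀ * (m * L) := mul_le_mul_of_nonneg_left h1 hK₀.le
        _ = m * K₀ * L := by ring
    have := Real.sqrt_le_sqrt h3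
    linarith
  have hKL : 0 < √(K * L) := Real.sqrt_pos.2 (by positivity)
  set R := 8 * √(K * L) with hR
  have hRpos : 0 < R := by positivity
  have hrR : r ≤ R := by
    refine hr0.trans ?_
    rw [hR]
    gcongr
  -- Markov
  have hMar : 3 / 4 ≤ μ.real (Metric.cthickening R A₀) := by
    have h1 : R * μ.real {x | R ≤ Metric.infDist x A₀} ≤ ∫ x, Metric.infDist x A₀ ∂μ :=
      mul_meas_ge_le_integral_of_nonneg (Eventually.of_forall fun x => Metric.infDist_nonneg)
        (hint _ (Metric.lipschitz_infDist_pt A₀)) R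
    have h2 : μ.real {x | R ≤ Metric.infDist x A₀} ≤ 1 / 4 := by
      have h3 : R * μ.real {x | R ≤ Metric.infDist x A₀} ≤ R * (1 / 4) := by
        refine h1.trans (hmean.trans ?_)
        rw [hR]; linarith
      exact le_of_mul_le_mul_left h3 hRpos
    have h4 : (Metric.cthickening R A₀)ᶜ ⊆ {x | R ≤ Metric.infDist x A₀} := by
      rw [cth_eq hne₀ hRpos.le]
      intro x hx
      simp only [mem_compl_iff, Set.mem_ofPred_eq, not_le] at hx ⊢
      exact hx.le
    have h5 : μ.real (Metric.cthickening R A₀)ᶜ ≤ 1 / 4 := (measureReal_mono h4).trans h2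
    have h6 := measureReal_compl (μ := μ) (Metric.isClosed_cthickening (δ := R) (E := A₀)).measurableSet
    rw [probReal_univ] at h6
    linarith
  set s := r / R with hs
  have hspos : 0 < s := by positivity
  have hs1 : s ≤ 1 := by rw [hs, div_le_one hRpos]; exact hrR
  have hsR : s * R = r := by rw [hs]; field_simp
  have hincl : ∀ x ∈ A, ∀ y ∈ Metric.cthickening R A₀,
      (1 - s) • x + s • y ∈ Metric.cthickening r A := by
    intro x hx y hy
    rw [cth_eq hne₀ hRpos.le] at hy
    have hy' : Metric.infDist y A₀ ≤ R := hy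
    rw [cth_eq hne hr]
    show Metric.infDist ((1 - s) • x + s • y) A ≤ r
    obtain ⟨v, hv, hv'⟩ := hc₀.exists_infDist_eq_dist hne₀ y
    have h1 : (1 - s) • x + s • v ∈ A :=
      hseg x hx v hv ⟨1 - s, s, by linarith, hspos.le, by ring, rfl⟩
    refine (Metric.infDist_le_dist_of_mem h1).trans ?_
    rw [dist_eq_norm]
    have h2 : (1 - s) • x + s • y - ((1 - s) • x + s • v) = s • (y - v) := by
      rw [smul_sub]; abel
    rw [h2, norm_smul, Real.norm_of_nonneg hspos.le, ← dist_eq_norm, ← hv', ← hsR]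
    exact mul_le_mul_of_nonneg_left hy' hspos.le
  have hmain : p ^ (1 - s) * (3 / 4 : ℝ) ^ s ≤ μ.real (Metric.cthickening r A) := by
    rcases hs1.eq_or_lt with h1 | h1
    · have hrR' : r = R := by rw [← hsR, h1, one_mul]
      rw [h1, hrR']
      have h2 : μ.real (Metric.cthickening R A₀) ≤ μ.real (Metric.cthickening R A) :=
        measureReal_mono (Metric.cthickening_subset_of_subset R hsub)
      simpa using hMar.trans h2
    · have h2 := hBM n μ hlc A (Metric.cthickening R A₀) (Metric.cthickening r A)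
        hc.measurableSet (Metric.isClosed_cthickening (δ := R) (E := A₀)).measurableSet
        (Metric.isClosed_cthickening (δ := r) (E := A)).measurableSet s hspos h1 hincl
      refine le_trans ?_ h2
      gcongr
  refine le_trans ?_ hmain
  -- numbers
  have h34 : (3 / 4 : ℝ) = p * (3 / (4 * p)) := by field_simp
  have hq : 0 < 3 / (4 * p) := by positivity
  have e1 : p ^ (1 - s) * (3 / 4 : ℝ) ^ s = p * (3 / (4 * p)) ^ s := by
    rw [show (3 / 4 : ℝ) ^ s = (p * (3 / (4 * p))) ^ s by rw [← h34]]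
    rw [Real.mul_rpow hp.le hq.le, ← mul_assoc, ← Real.rpow_add hp]
    simp
  rw [e1]
  have e2 : 1 + s * Real.log (3 / (4 * p)) ≤ (3 / (4 * p)) ^ s := by
    rw [Real.rpow_def_of_pos hq, mul_comm (Real.log _) s]
    have := Real.add_one_le_exp (s * Real.log (3 / (4 * p)))
    linarith
  have e3 : L / 2 ≤ Real.log (3 / (4 * p)) := by
    have h1 : Real.log (3 / (4 * p)) = Real.log (3 / 4) + L := by
      rw [hL, ← Real.log_mul (by norm_num) (by positivity)]
      congr 1; field_simp
    have h2 : - (Real.log 2 / 2) ≤ Real.log (3 / 4) := by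
      have h3 : Real.log (1 / 2) ≤ Real.log ((3 / 4) ^ 2) := Real.log_le_log (by norm_num) (by norm_num)
      rw [Real.log_pow, one_div, Real.log_inv] at h3
      push_cast at h3
      linarith
    rw [h1]; linarith
  have e4 : r * √L / (16 * √K) = s * (L / 2) := by
    rw [hs, hR, Real.sqrt_mul hK.le]
    have hsK : 0 < √K := Real.sqrt_pos.2 hK
    have hsL : 0 < √L := Real.sqrt_pos.2 hLpos
    have : L = √L * √L := (Real.mul_self_sqrt hLpos.le).symm
    nth_rewrite 3 [this]
    field_simp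
    ring
  rw [e4]
  apply mul_le_mul_of_nonneg_left _ hp.le
  calc 1 + s * (L / 2) ≤ 1 + s * Real.log (3 / (4 * p)) := by gcongr
    _ ≤ _ := e2

end Vale.Agent.P245.H368
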