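import Vale.Agent.P245.H368.Star
import Vale.Agent.P245.H368.FinP
import Vale.Agent.P245.H68.Peaks

/-! P245 (helper368): the log-Sobolev inequality of Q1 for functions whose super-level sets are
finite disjoint unions of star-shaped sets with large convex kernels. -/

open MeasureTheory Set Filter Topology
open scoped ENNReal ContDiff

namespace Vale.Agent.P245.H368

open Vale.Agent.P245.QC Vale.Agent.P245.H68

variable {n : ℕ}

/-- threshold form for an arbitrary class `Q` of closed sets -/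
theorem high_P (hM : StMed) (hPW : StPW) {Q : Set (EuclideanSpace ℝ (Fin n)) → Prop}
    {μ : Measure (EuclideanSpace ℝ (Fin n))}
    [IsProbabilityMeasure μ] {κ r₀ P : ℝ} (hκ : 0 < κ) (hr₀ : 0 < r₀) (hP : 0 ≤ P)
    (hIso : IsoP μ Q κ r₀)
    (hPoin : ∀ f : EuclideanSpace ℝ (Fin n) → ℝ, ContDiff ℝ ∞ f → HasCompactSupport f →
      (∫ x, f x ^ 2 ∂μ) - (∫ x, f x ∂μ) ^ 2 ≤ P * ∫ x, ‖gradient f x‖ ^ 2 ∂μ)
    {f : EuclideanSpace ℝ (Fin n) → ℝ} (hf : ContDiff ℝ ∞ f) (hc : HasCompactSupport f) {T : ℝ}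
    (hq : ∀ᵐ t : ℝ, T < t → FinP Q {x | t ≤ |f x|}) :
    Entropy μ (fun x => f x ^ 2) ≤
      (280 * P + 2560 * κ ^ 2) * (1 + Real.log (1 + T ^ 2 / ∫ x, f x ^ 2 ∂μ)) *
        ∫ x, ‖gradient f x‖ ^ 2 ∂μ := by
  have h1 := of_trunc (D := 60 * P + 640 * κ ^ 2) (P := P) (by positivity) hP hf hc
    (hPoin f hf hc) (T := T) (fun T' hT'0 hTT' _ => by
      refine finP hM hPW hκ hr₀ hIso hPoin (h_contDiff hT'0 hf) (h_compact hT'0 hc) ?_
      have hq' : ∀ᵐ t : ℝ, T' < t → FinP Q {x | t ≤ |f x|} := by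
        filter_upwards [hq] with t ht htT
        exact ht (hTT'.trans_lt htT)
      filter_upwards [ae_levels hT'0 hq'] with s hs hs0 _
      obtain ⟨t, htT, hts, hG⟩ := hs hs0
      have e : {x | s ≤ |(fun x => gr T' |f x|) x|} = {x | t ≤ |f x|} := by
        ext x
        show s ≤ |(gr T' |f x|)| ↔ t ≤ |f x|
        rw [abs_of_nonneg (gr_nonneg hT'0 _), ← hts]
        exact gr_le_gr_iff hT'0 htT
      rw [e]
      exact hG)
  refine h1.trans (le_of_eq ?_)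
  ring

variable {μ : Measure (EuclideanSpace ℝ (Fin n))}

theorem iso_star [IsProbabilityMeasure μ] {a C0 m : ℝ} (ha : 0 < a) (hC0 : 0 < C0) (hm : 1 ≤ m)
    (hK : H607.KLS C0) (hlc : HasLogConcaveDensity μ) (hsub : LinearlySubgaussian μ a) :
    IsoP μ (StarSet μ m) (16 * √(m * ((8 * C0 + 26) * a ^ 2)))
      (8 * √(m * ((8 * C0 + 26) * a ^ 2) * Real.log 2)) := by
  intro A hA hAc hp hp2 r hr hr0
  refine star_iso QC.H110.bm hlc (by positivity) hm ?_ ?_ hAc hA hp hp2 hr hr0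
  · intro F hF hconv t ht
    exact H607.conc ha hC0 hK hlc hsub hF hconv ht
  · intro F hF
    exact H607.lip_integrable ha hsub hF

/-- **Log-Sobolev inequality, star-shaped level sets.** -/
theorem lsi_star [IsProbabilityMeasure μ] {a C0 P m : ℝ} (ha : 0 < a) (hC0 : 0 < C0)
    (hK : H607.KLS C0) (hlc : HasLogConcaveDensity μ) (hsub : LinearlySubgaussian μ a)
    (hP0 : 0 ≤ P) (hm : 1 ≤ m)
    (hP : ∀ f : EuclideanSpace ℝ (Fin n) → ℝ, ContDiff ℝ ∞ f → HasCompactSupport f →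
      (∫ x, f x ^ 2 ∂μ) - (∫ x, f x ∂μ) ^ 2 ≤ P * ∫ x, ‖gradient f x‖ ^ 2 ∂μ)
    {f : EuclideanSpace ℝ (Fin n) → ℝ} (hf : ContDiff ℝ ∞ f) (hfc : HasCompactSupport f) {T : ℝ}
    (hq : ∀ᵐ t : ℝ, T < t → FinP (StarSet μ m) {x | t ≤ |f x|}) :
    Entropy μ (fun x => f x ^ 2) ≤
      (280 * P + 655360 * (m * ((8 * C0 + 26) * a ^ 2))) *
        (1 + Real.log (1 + T ^ 2 / ∫ x, f x ^ 2 ∂μ)) * ∫ x, ‖gradient f x‖ ^ 2 ∂μ := by
  have hlog : 0 < Real.log 2 := Real.log_pos (by norm_num)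
  have hm0 : 0 < m := by linarith
  have h := high_P (n := n) QC.H12.med QC.H12.pw (Q := StarSet μ m) (μ := μ)
    (κ := 16 * √(m * ((8 * C0 + 26) * a ^ 2)))
    (r₀ := 8 * √(m * ((8 * C0 + 26) * a ^ 2) * Real.log 2)) (P := P) (by positivity)
    (by positivity) hP0 (iso_star ha hC0 hm hK hlc hsub) hP hf hfc hq
  refine h.trans (le_of_eq ?_)
  have e : (16 * √(m * ((8 * C0 + 26) * a ^ 2))) ^ 2 = 256 * (m * ((8 * C0 + 26) * a ^ 2)) := by
    rw [mul_pow, Real.sq_sqrt (by positivity)]; norm_num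
  rw [e]; ring

/-- the convex case -/
theorem starSet_of_convex {A : Set (EuclideanSpace ℝ (Fin n))} (hA : Convex ℝ A)
    (hc : IsClosed A) : StarSet μ 1 A :=
  ⟨A, hA, hc, fun _ hx _ hy => hA.segment_subset hx hy, by rw [Real.rpow_one]⟩

end Vale.Agent.P245.H368
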