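import Vale.Agent.P245.H368.Hole

/-! P245 (helper368): the final form of `Hole.lean` with a free constant, for the assembly. -/

open MeasureTheory Set Filter Topology
open scoped ENNReal ContDiff

namespace Vale.Agent.P245.H368

/-- the statement of `star_final` for one measure and one constant `C` -/
def StarLogSobolev {n : ℕ} (μ : Measure (EuclideanSpace ℝ (Fin n))) (C a : ℝ) : Prop :=
  ∀ m : ℝ, 1 ≤ m →
    (∀ A : Set (EuclideanSpace ℝ (Fin n)), IsClosed A → StarHoles μ m A → 0 < μ.real A →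
      μ.real A ≤ 1 / 2 → ∀ r : ℝ, 0 ≤ r → r ≤ a →
      μ.real A * (1 + r * √(Real.log (1 / μ.real A)) / (C * √m * a)) ≤
        μ.real (Metric.cthickening r A)) ∧
    (∀ f : EuclideanSpace ℝ (Fin n) → ℝ, ContDiff ℝ ∞ f → HasCompactSupport f → ∀ T : ℝ,
      (∀ᵐ t : ℝ, T < t → ∃ (N : ℕ) (A : Fin N → Set (EuclideanSpace ℝ (Fin n))),
        (∀ i, StarHoles μ m (A i)) ∧ (∀ i, IsClosed (A i)) ∧
        (∀ i j, i ≠ j → Disjoint (A i) (A j)) ∧ {x | t ≤ |f x|} = ⋃ i, A i) →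
      Entropy μ (fun x => f x ^ 2) ≤
        C * m * (1 + Real.log (1 + T ^ 2 / ∫ x, f x ^ 2 ∂μ)) * a ^ 2 *
          ∫ x, ‖gradient f x‖ ^ 2 ∂μ)

/-- monotonicity in the constant -/
theorem StarLogSobolev.mono {n : ℕ} {μ : Measure (EuclideanSpace ℝ (Fin n))} {C C' a : ℝ}
    (hC : 0 < C) (hCC : C ≤ C') (ha : 0 < a) (h : StarLogSobolev μ C a) :
    StarLogSobolev μ C' a := by
  intro m hm
  have hm0 : 0 < m := by linarith
  have hsm : 0 < √m := Real.sqrt_pos.2 hm0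
  obtain ⟨h1, h2⟩ := h m hm
  refine ⟨fun A hAc hA hp hp2 r hr hra => ?_, fun f hf hfc T hq => ?_⟩
  · refine le_trans ?_ (h1 A hAc hA hp hp2 r hr hra)
    apply mul_le_mul_of_nonneg_left _ hp.le
    have h3 : r * √(Real.log (1 / μ.real A)) / (C' * √m * a) ≤
        r * √(Real.log (1 / μ.real A)) / (C * √m * a) := by
      apply div_le_div_of_nonneg_left (by positivity) (by positivity)
      apply mul_le_mul_of_nonneg_right _ ha.le
      exact mul_le_mul_of_nonneg_right hCC hsm.le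
    linarith
  · refine (h2 f hf hfc T hq).trans ?_
    have hI0 : 0 ≤ ∫ x, ‖gradient f x‖ ^ 2 ∂μ := integral_nonneg fun x => by positivity
    have hF0 : 0 ≤ ∫ x, f x ^ 2 ∂μ := integral_nonneg fun x => sq_nonneg _
    have hl0 : 0 ≤ Real.log (1 + T ^ 2 / ∫ x, f x ^ 2 ∂μ) :=
      Real.log_nonneg (by linarith [div_nonneg (sq_nonneg T) hF0])
    have hx : 0 ≤ m * ((1 + Real.log (1 + T ^ 2 / ∫ x, f x ^ 2 ∂μ)) *
        (a ^ 2 * ∫ x, ‖gradient f x‖ ^ 2 ∂μ)) := by positivity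
    have := mul_le_mul_of_nonneg_right hCC hx
    calc C * m * (1 + Real.log (1 + T ^ 2 / ∫ x, f x ^ 2 ∂μ)) * a ^ 2 *
          ∫ x, ‖gradient f x‖ ^ 2 ∂μ = C * (m * ((1 + Real.log (1 + T ^ 2 / ∫ x, f x ^ 2 ∂μ)) *
        (a ^ 2 * ∫ x, ‖gradient f x‖ ^ 2 ∂μ))) := by ring
      _ ≤ C' * (m * ((1 + Real.log (1 + T ^ 2 / ∫ x, f x ^ 2 ∂μ)) *
        (a ^ 2 * ∫ x, ‖gradient f x‖ ^ 2 ∂μ))) := this
      _ = _ := by ring

/-- one absolute constant, named form -/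
theorem star_named : ∃ C : ℝ, 0 < C ∧ ∀ (n : ℕ) (μ : Measure (EuclideanSpace ℝ (Fin n)))
    [IsProbabilityMeasure μ], HasLogConcaveDensity μ → ∀ a : ℝ, 0 < a →
    LinearlySubgaussian μ a → StarLogSobolev μ C a := by
  obtain ⟨C, hC, h⟩ := star_final
  exact ⟨C, hC, fun n μ _ hlc a ha hsub => h n μ hlc a ha hsub⟩

end Vale.Agent.P245.H368
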