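import Vale.Agent.P245.H368.Uni

/-! P245 (helper368): functional isoperimetric inequality for `|f|`, super-level sets with convex
components. -/

open MeasureTheory Set Filter Topology
open scoped ENNReal ContDiff

namespace Vale.Agent.P245.H368

open Vale.Agent.P245.QC

variable {n : ℕ}

/-- upper bound for the increment -/
theorem upperU {f : EuclideanSpace ℝ (Fin n) → ℝ} (hf : ContDiff ℝ ∞ f)
    (hc : HasCompactSupport f) {γ : ℝ → ℝ} (hγ : Continuous γ)
    (hγ0 : ∀ t, 0 ≤ γ t) {ε : ℝ} (hε : 0 < ε) :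
    ∃ δ > 0, ∀ r, 0 < r → r ≤ δ → ∀ x,
      Pr γ (Qs (fun y => |f y|) r x) - Pr γ |f x| ≤
        r * ((‖gradient f x‖ + ε) * (γ |f x| + ε)) := by
  have hfc := hf.continuous
  have hac : Continuous fun y => |f y| := hfc.abs
  obtain ⟨B, hB0, hB⟩ := bdd_of_compact hfc hc
  have hdiff : Differentiable ℝ f := hf.differentiable (by simp)
  have hdc : Continuous (fderiv ℝ f) := hf.continuous_fderiv (by simp)
  have hdcs : HasCompactSupport (fderiv ℝ f) := hc.fderiv ℝ
  obtain ⟨L, hL⟩ := hdcs.exists_bound_of_continuous hdc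
  have hL0 : 0 ≤ L := (norm_nonneg _).trans (hL 0)
  have huc : UniformContinuous (fderiv ℝ f) := hdcs.uniformContinuous_of_continuous hdc
  obtain ⟨δ1, hδ1, h1⟩ := Metric.uniformContinuous_iff.1 huc ε hε
  have hγu : UniformContinuousOn γ (Icc 0 B) :=
    isCompact_Icc.uniformContinuousOn_of_continuous hγ.continuousOn
  obtain ⟨δ2, hδ2, h2⟩ := Metric.uniformContinuousOn_iff.1 hγu ε hε
  refine ⟨min (δ1 / 2) (δ2 / (2 * (L + 1))), by positivity, fun r hr hrδ x => ?_⟩
  have hr1 : r < δ1 := lt_of_le_of_lt (hrδ.trans (min_le_left _ _)) (by linarith)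
  have hr2 : r * (L + 1) < δ2 := by
    have := hrδ.trans (min_le_right _ _)
    rw [le_div_iff₀ (by positivity)] at this
    nlinarith
  obtain ⟨h, hh, e⟩ := Qs_attained hac hr.le x
  have hh' : ‖h‖ ≤ r := by simpa using hh
  have hng : ‖gradient f x‖ = ‖fderiv ℝ f x‖ := by
    rw [gradient, LinearIsometryEquiv.norm_map]
  have habs : |f (x + h)| - |f x| ≤ |f (x + h) - f x| := abs_sub_abs_le_abs_sub _ _
  -- first order bound
  have hfd : |f (x + h)| - |f x| ≤ r * (‖gradient f x‖ + ε) := by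
    have hb : ∀ y ∈ Metric.closedBall x r, ‖fderiv ℝ f y - fderiv ℝ f x‖ ≤ ε := by
      intro y hy
      have := h1 (a := y) (b := x) (lt_of_le_of_lt hy hr1)
      rw [dist_eq_norm] at this
      exact this.le
    have := (convex_closedBall x r).norm_image_sub_le_of_norm_fderiv_le'
      (fun y _ => hdiff y) hb (Metric.mem_closedBall_self hr.le)
      (y := x + h) (by simpa [dist_eq_norm] using hh')
    rw [add_sub_cancel_left, Real.norm_eq_abs] at this
    have h4 : |fderiv ℝ f x h| ≤ ‖fderiv ℝ f x‖ * ‖h‖ := (fderiv ℝ f x).le_opNorm h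
    have h5 : |f (x + h) - f x| ≤ |f (x + h) - f x - fderiv ℝ f x h| + |fderiv ℝ f x h| := by
      have := abs_add_le (f (x + h) - f x - fderiv ℝ f x h) (fderiv ℝ f x h)
      rwa [sub_add_cancel] at this
    rw [hng]
    nlinarith [norm_nonneg (fderiv ℝ f x), norm_nonneg h]
  -- Lipschitz bound
  have hlip : |f (x + h)| - |f x| ≤ L * r := by
    have := convex_univ.norm_image_sub_le_of_norm_fderiv_le (𝕜 := ℝ) (f := f) (C := L)
      (fun y _ => hdiff y) (fun y _ => hL y) (mem_univ x) (mem_univ (x + h))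
    rw [add_sub_cancel_left, Real.norm_eq_abs] at this
    exact habs.trans (this.trans (mul_le_mul_of_nonneg_left hh' hL0))
  have hge : |f x| ≤ Qs (fun y => |f y|) r x := le_Qs_self hac hr.le x
  have hQB : Qs (fun y => |f y|) r x ≤ B := by rw [e]; exact hB _
  have hbound : ∀ t ∈ Icc |f x| (Qs (fun y => |f y|) r x), γ t ≤ γ |f x| + ε := by
    intro t ht
    have hd : dist t |f x| < δ2 := by
      rw [Real.dist_eq, abs_of_nonneg (by linarith [ht.1])]
      have : t - |f x| ≤ L * r := by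
        have := ht.2
        rw [e] at this
        linarith
      nlinarith
    have := h2 t ⟨(abs_nonneg _).trans ht.1, ht.2.trans hQB⟩ |f x| ⟨abs_nonneg _, hB x⟩ hd
    rw [Real.dist_eq] at this
    have := (abs_lt.1 this).2
    linarith
  have hsplit : Pr γ (Qs (fun y => |f y|) r x) - Pr γ |f x| =
      ∫ t in |f x|..(Qs (fun y => |f y|) r x), γ t := by
    unfold Pr
    rw [intervalIntegral.integral_interval_sub_left (hγ.intervalIntegrable _ _)
      (hγ.intervalIntegrable _ _)]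
  rw [hsplit]
  calc ∫ t in |f x|..(Qs (fun y => |f y|) r x), γ t
      ≤ ∫ _t in |f x|..(Qs (fun y => |f y|) r x), (γ |f x| + ε) := by
        apply intervalIntegral.integral_mono_on hge (hγ.intervalIntegrable _ _)
          (by simp) hbound
    _ = (Qs (fun y => |f y|) r x - |f x|) * (γ |f x| + ε) := by
        rw [intervalIntegral.integral_const, smul_eq_mul]
    _ ≤ (r * (‖gradient f x‖ + ε)) * (γ |f x| + ε) := by
        apply mul_le_mul_of_nonneg_right _ (by have := hγ0 |f x|; linarith)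
        rw [e]
        exact hfd
    _ = r * ((‖gradient f x‖ + ε) * (γ |f x| + ε)) := by ring

theorem supU {μ : Measure (EuclideanSpace ℝ (Fin n))} [IsProbabilityMeasure μ] {κ r₀ : ℝ}
    (hκ : 0 < κ) (hr₀ : 0 < r₀) (hiso : Iso μ κ r₀) {f : EuclideanSpace ℝ (Fin n) → ℝ}
    (hf : ContDiff ℝ ∞ f) (hc : HasCompactSupport f) {M : ℝ} (hM0 : 0 ≤ M)
    (hq : ∀ᵐ t : ℝ, M < t → FinConv {x | t ≤ |f x|})
    (hM : ∀ t, M < t → μ.real {x | t ≤ |f x|} ≤ 1 / 2) (γ w : ℝ → ℝ) (hγ : Continuous γ)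
    (hw : Continuous w) (hγ0 : ∀ t, 0 ≤ γ t) (hw0 : ∀ t, 0 ≤ w t) (hwM : ∀ t ≤ M, w t = 0)
    (hwγ : ∀ t, M < t → 0 < μ.real {x | t ≤ |f x|} →
      w t ≤ γ t * √(Real.log (1 / μ.real {x | t ≤ |f x|}))) :
    ∫ x, (∫ t in (0 : ℝ)..|f x|, w t) ∂μ ≤ κ * ∫ x, γ |f x| * ‖gradient f x‖ ∂μ := by
  have hfc := hf.continuous
  have hac : Continuous fun y => |f y| := hfc.abs
  have hacs : HasCompactSupport fun y => |f y| := hc.norm
  have hf0 : ∀ x, 0 ≤ |f x| := fun x => abs_nonneg _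
  obtain ⟨B, hB0, hB⟩ := bdd_of_compact hfc hc
  have hdc : Continuous (fderiv ℝ f) := hf.continuous_fderiv (by simp)
  have hdcs : HasCompactSupport (fderiv ℝ f) := hc.fderiv ℝ
  obtain ⟨L, hL⟩ := hdcs.exists_bound_of_continuous hdc
  have hng : ∀ x, ‖gradient f x‖ = ‖fderiv ℝ f x‖ := by
    intro x
    rw [gradient, LinearIsometryEquiv.norm_map]
  have hgc : Continuous fun x => ‖gradient f x‖ := by
    simp_rw [hng]
    exact hdc.norm
  have hgi : Integrable (fun x => ‖gradient f x‖) μ := by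
    refine int_bdd hgc (B := L) fun x => ?_
    rw [abs_of_nonneg (norm_nonneg _), hng]
    exact hL x
  have hγb : ∃ Γ, ∀ x, |γ (|f x|)| ≤ Γ := by
    obtain ⟨Γ, hΓ⟩ := (isCompact_Icc (a := (0 : ℝ)) (b := B)).exists_bound_of_continuousOn
      hγ.continuousOn
    exact ⟨Γ, fun x => hΓ _ ⟨hf0 x, hB x⟩⟩
  obtain ⟨Γ, hΓ⟩ := hγb
  have hγi : Integrable (fun x => γ |f x|) μ := int_bdd (hγ.comp hac) hΓ
  have hγgi : Integrable (fun x => γ |f x| * ‖gradient f x‖) μ := by
    refine int_bdd ((hγ.comp hac).mul hgc) (B := Γ * L) fun x => ?_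
    rw [abs_mul]
    apply mul_le_mul (hΓ x) _ (abs_nonneg _) ((abs_nonneg _).trans (hΓ x))
    rw [abs_of_nonneg (norm_nonneg _), hng]
    exact hL x
  have key : ∀ ε : ℝ, 0 < ε → ∫ x, Pr w |f x| ∂μ ≤
      κ * (∫ x, γ |f x| * ‖gradient f x‖ ∂μ + ε * ((∫ x, γ |f x| ∂μ)
        + (∫ x, ‖gradient f x‖ ∂μ) + ε)) := by
    intro ε hε
    obtain ⟨δ, hδ, h1⟩ := upperU hf hc hγ hγ0 hε
    have hJ0 : 0 ≤ ∫ x, γ |f x| * ‖gradient f x‖ ∂μ + ε * ((∫ x, γ |f x| ∂μ)
        + (∫ x, ‖gradient f x‖ ∂μ) + ε) := by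
      have a1 : 0 ≤ ∫ x, γ |f x| * ‖gradient f x‖ ∂μ :=
        integral_nonneg fun x => mul_nonneg (hγ0 _) (norm_nonneg _)
      have a2 : 0 ≤ ∫ x, γ |f x| ∂μ := integral_nonneg fun x => hγ0 _
      have a3 : 0 ≤ ∫ x, ‖gradient f x‖ ∂μ := integral_nonneg fun x => norm_nonneg _
      positivity
    refine lowerU hκ hr₀ hiso hac hacs hf0 hM0 hq hM hγ hw hγ0 hw0 hwM hwγ hδ hJ0
      fun r hr0 hrδ => ?_
    have hQ0 : ∀ x, 0 ≤ Qs (fun y => |f y|) r x := fun x => (hf0 x).trans (le_Qs_self hac hr0.le x)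
    have hQB : ∀ x, Qs (fun y => |f y|) r x ≤ B := by
      intro x
      obtain ⟨h, -, e⟩ := Qs_attained hac hr0.le x
      rw [e]
      exact hB _
    have h3 : ∫ x, Pr γ (Qs (fun y => |f y|) r x) ∂μ - ∫ x, Pr γ |f x| ∂μ ≤
        ∫ x, r * ((‖gradient f x‖ + ε) * (γ |f x| + ε)) ∂μ := by
      rw [← integral_sub (int_Pr hγ hγ0 (Qs_continuous hac r) hQB hQ0)
        (int_Pr hγ hγ0 hac hB hf0)]
      apply integral_mono ((int_Pr hγ hγ0 (Qs_continuous hac r) hQB hQ0).sub
        (int_Pr hγ hγ0 hac hB hf0)) _ (fun x => h1 r hr0 hrδ x)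
      apply Integrable.const_mul
      have : (fun x => (‖gradient f x‖ + ε) * (γ |f x| + ε)) = fun x =>
          γ |f x| * ‖gradient f x‖ + (ε * γ |f x| + (ε * ‖gradient f x‖ + ε * ε)) := by
        funext x
        ring
      rw [this]
      exact hγgi.add ((hγi.const_mul ε).add ((hgi.const_mul ε).add (integrable_const _)))
    rw [integral_const_mul] at h3
    have h4 : ∫ x, (‖gradient f x‖ + ε) * (γ |f x| + ε) ∂μ =
        ∫ x, γ |f x| * ‖gradient f x‖ ∂μ + ε * ((∫ x, γ |f x| ∂μ)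
          + (∫ x, ‖gradient f x‖ ∂μ) + ε) := by
      have : (fun x => (‖gradient f x‖ + ε) * (γ |f x| + ε)) = fun x =>
          γ |f x| * ‖gradient f x‖ + (ε * γ |f x| + (ε * ‖gradient f x‖ + ε * ε)) := by
        funext x
        ring
      have a1 : Integrable (fun x => ε * ‖gradient f x‖ + ε * ε) μ :=
        (hgi.const_mul ε).add (integrable_const _)
      have a2 : Integrable (fun x => ε * γ |f x| + (ε * ‖gradient f x‖ + ε * ε)) μ :=
        (hγi.const_mul ε).add a1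
      rw [this, integral_add hγgi a2, integral_add (hγi.const_mul ε) a1,
        integral_add (hgi.const_mul ε) (integrable_const _),
        integral_const_mul, integral_const_mul, integral_const]
      simp
      ring
    rw [h4] at h3
    exact h3
  have hlim : Tendsto (fun ε : ℝ => κ * (∫ x, γ |f x| * ‖gradient f x‖ ∂μ
      + ε * ((∫ x, γ |f x| ∂μ) + (∫ x, ‖gradient f x‖ ∂μ) + ε))) (𝓝[>] 0)
      (𝓝 (κ * (∫ x, γ |f x| * ‖gradient f x‖ ∂μ
      + 0 * ((∫ x, γ |f x| ∂μ) + (∫ x, ‖gradient f x‖ ∂μ) + 0)))) := by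
    apply Tendsto.mono_left _ nhdsWithin_le_nhds
    have : Continuous fun ε : ℝ => κ * (∫ x, γ |f x| * ‖gradient f x‖ ∂μ
      + ε * ((∫ x, γ |f x| ∂μ) + (∫ x, ‖gradient f x‖ ∂μ) + ε)) := by fun_prop
    exact this.tendsto 0
  rw [zero_mul, add_zero] at hlim
  refine ge_of_tendsto hlim ?_
  filter_upwards [self_mem_nhdsWithin] with ε hε
  exact key ε hε

end Vale.Agent.P245.H368
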