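import Vale.Agent.P245.QC.Sup

/-! P245 (helper368): isoperimetric inequality for finite disjoint unions of convex sets and its
functional form for functions whose super-level sets have convex components. -/

open MeasureTheory Set Filter Topology
open scoped ENNReal ContDiff

namespace Vale.Agent.P245.H368

open Vale.Agent.P245.QC

variable {n : ℕ}

/-- finite union of pairwise disjoint closed convex sets -/
def FinConv (A : Set (EuclideanSpace ℝ (Fin n))) : Prop :=
  ∃ (N : ℕ) (B : Fin N → Set (EuclideanSpace ℝ (Fin n))), (∀ i, Convex ℝ (B i)) ∧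
    (∀ i, IsClosed (B i)) ∧ (∀ i j, i ≠ j → Disjoint (B i) (B j)) ∧ A = ⋃ i, B i

theorem disj_thick {N : ℕ} {B : Fin N → Set (EuclideanSpace ℝ (Fin n))}
    (hc : ∀ i, IsCompact (B i)) (hd : ∀ i j, i ≠ j → Disjoint (B i) (B j)) :
    ∀ᶠ r in 𝓝[>] (0 : ℝ), ∀ i j, i ≠ j →
      Disjoint (Metric.cthickening r (B i)) (Metric.cthickening r (B j)) := by
  rw [eventually_all]
  intro i
  rw [eventually_all]
  intro j
  by_cases hij : i = j
  · exact Eventually.of_forall fun r h => absurd hij h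
  · obtain ⟨δ, hδ, h⟩ := (hd i j hij).exists_cthickenings (hc i) (hc j).isClosed
    filter_upwards [Ioo_mem_nhdsGT hδ] with r hr _
    exact h.mono (Metric.cthickening_mono hr.2.le _) (Metric.cthickening_mono hr.2.le _)

theorem iso_union {μ : Measure (EuclideanSpace ℝ (Fin n))} [IsProbabilityMeasure μ] {κ r₀ : ℝ}
    (hκ : 0 < κ) (hr₀ : 0 < r₀) (hiso : Iso μ κ r₀) {A : Set (EuclideanSpace ℝ (Fin n))}
    (hA : FinConv A) (hAc : IsCompact A) (hp2 : μ.real A ≤ 1 / 2) :
    ∀ᶠ r in 𝓝[>] (0 : ℝ), μ.real A * (1 + r * √(Real.log (1 / μ.real A)) / κ) ≤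
      μ.real (Metric.cthickening r A) := by
  obtain ⟨N, B, hconv, hcl, hdis, rfl⟩ := hA
  have hBc : ∀ i, IsCompact (B i) := fun i => hAc.of_isClosed_subset (hcl i) (subset_iUnion B i)
  filter_upwards [disj_thick hBc hdis, Ioo_mem_nhdsGT hr₀] with r hr hr1
  have hsum : μ.real (⋃ i, B i) = ∑ i, μ.real (B i) := by
    have h := measureReal_biUnion_finset (μ := μ) (s := Finset.univ) (f := B)
      (fun i _ j _ hij => hdis i j hij) (fun i _ => (hcl i).measurableSet)
    simpa using h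
  have hsum2 : μ.real (⋃ i, Metric.cthickening r (B i)) =
      ∑ i, μ.real (Metric.cthickening r (B i)) := by
    have h := measureReal_biUnion_finset (μ := μ) (s := Finset.univ)
      (f := fun i => Metric.cthickening r (B i))
      (fun i _ j _ hij => hr i j hij) (fun i _ => Metric.isClosed_cthickening.measurableSet)
    simpa using h
  have hle : ∀ i, μ.real (B i) ≤ μ.real (⋃ i, B i) := fun i =>
    measureReal_mono (subset_iUnion B i)
  obtain ⟨c, hc⟩ : ∃ c, c = 1 + r * √(Real.log (1 / μ.real (⋃ i, B i))) / κ := ⟨_, rfl⟩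
  rw [← hc]
  have h1 : ∀ i, μ.real (B i) * c ≤ μ.real (Metric.cthickening r (B i)) := by
    intro i
    rcases (measureReal_nonneg (μ := μ) (s := B i)).eq_or_lt with h | h
    · rw [← h, zero_mul]
      exact measureReal_nonneg
    · have h2 := hiso (B i) (hconv i) (hcl i) h ((hle i).trans hp2) r hr1.1.le hr1.2.le
      refine le_trans (mul_le_mul_of_nonneg_left ?_ h.le) h2
      have h3 : √(Real.log (1 / μ.real (⋃ i, B i))) ≤ √(Real.log (1 / μ.real (B i))) := by
        apply Real.sqrt_le_sqrt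
        apply Real.log_le_log
        · exact one_div_pos.2 (h.trans_le (hle i))
        · exact one_div_le_one_div_of_le h (hle i)
      rw [hc]
      have h4 : r * √(Real.log (1 / μ.real (⋃ i, B i))) ≤ r * √(Real.log (1 / μ.real (B i))) :=
        mul_le_mul_of_nonneg_left h3 hr1.1.le
      have h5 := div_le_div_of_nonneg_right h4 hκ.le
      linarith
  have h2 : (⋃ i, Metric.cthickening r (B i)) ⊆ Metric.cthickening r (⋃ i, B i) :=
    iUnion_subset fun i => Metric.cthickening_subset_of_subset r (subset_iUnion B i)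
  calc μ.real (⋃ i, B i) * c = ∑ i, μ.real (B i) * c := by rw [hsum, Finset.sum_mul]
    _ ≤ ∑ i, μ.real (Metric.cthickening r (B i)) := Finset.sum_le_sum fun i _ => h1 i
    _ = μ.real (⋃ i, Metric.cthickening r (B i)) := hsum2.symm
    _ ≤ _ := measureReal_mono h2

/-- lower bound for the derivative of the increment, by Fatou's lemma in the level -/
theorem lowerU {μ : Measure (EuclideanSpace ℝ (Fin n))} [IsProbabilityMeasure μ] {κ r₀ : ℝ}
    (hκ : 0 < κ) (hr₀ : 0 < r₀) (hiso : Iso μ κ r₀) {f : EuclideanSpace ℝ (Fin n) → ℝ}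
    (hf : Continuous f) (hc : HasCompactSupport f) (hf0 : ∀ x, 0 ≤ f x) {M : ℝ} (hM0 : 0 ≤ M)
    (hq : ∀ᵐ t : ℝ, M < t → FinConv {x | t ≤ f x})
    (hM : ∀ t, M < t → μ.real {x | t ≤ f x} ≤ 1 / 2) {γ w : ℝ → ℝ} (hγ : Continuous γ)
    (hw : Continuous w) (hγ0 : ∀ t, 0 ≤ γ t) (hw0 : ∀ t, 0 ≤ w t) (hwM : ∀ t ≤ M, w t = 0)
    (hwγ : ∀ t, M < t → 0 < μ.real {x | t ≤ f x} →
      w t ≤ γ t * √(Real.log (1 / μ.real {x | t ≤ f x}))) {δ J : ℝ} (hδ : 0 < δ) (hJ : 0 ≤ J)
    (hup : ∀ r, 0 < r → r ≤ δ → ∫ x, Pr γ (Qs f r x) ∂μ - ∫ x, Pr γ (f x) ∂μ ≤ r * J) :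
    ∫ x, Pr w (f x) ∂μ ≤ κ * J := by
  obtain ⟨B, hB0, hB⟩ := bdd_of_compact hf hc
  have hfB : ∀ x, f x ≤ B := fun x => (le_abs_self _).trans (hB x)
  obtain ⟨r, hr⟩ : ∃ r : ℕ → ℝ, r = fun k : ℕ => δ / ((k : ℝ) + 1) := ⟨_, rfl⟩
  have hr0 : ∀ k, 0 < r k := fun k => by rw [hr]; positivity
  have hrδ : ∀ k, r k ≤ δ := fun k => by
    rw [hr]
    apply div_le_self hδ.le
    have : (0 : ℝ) ≤ k := Nat.cast_nonneg k
    linarith
  have hrlim : Tendsto r atTop (𝓝[>] 0) := by
    apply tendsto_nhdsWithin_of_tendsto_nhds_of_eventually_within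
    · rw [hr]
      exact tendsto_const_div_atTop_nhds_zero_nat δ |>.comp (tendsto_add_atTop_nat 1) |>.congr
        fun k => by simp
    · exact Eventually.of_forall fun k => hr0 k
  have hQB : ∀ k x, Qs f (r k) x ≤ B := by
    intro k x
    obtain ⟨h, -, e⟩ := Qs_attained hf (hr0 k).le x
    rw [e]
    exact hfB _
  have hQ0 : ∀ k x, 0 ≤ Qs f (r k) x := fun k x => (hf0 x).trans (le_Qs_self hf (hr0 k).le x)
  have i1 : 0 ≤ ∫ x, Pr γ (f x) ∂μ := integral_nonneg fun x => Pr_nonneg hγ0 (hf0 x)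
  have i2 : 0 ≤ ∫ x, Pr w (f x) ∂μ := integral_nonneg fun x => Pr_nonneg hw0 (hf0 x)
  -- distribution functions
  have hm : ∀ u : EuclideanSpace ℝ (Fin n) → ℝ, Measurable fun t : ℝ => μ.real {x | t ≤ u x} := by
    intro u
    exact Antitone.measurable fun s t hst => measureReal_mono fun x hx => le_trans hst hx
  have hsub : ∀ k t, μ.real {x | t ≤ f x} ≤ μ.real {x | t ≤ Qs f (r k) x} := fun k t =>
    measureReal_mono fun x hx => le_trans hx (le_Qs_self hf (hr0 k).le x)
  obtain ⟨F, hF⟩ : ∃ F : ℕ → ℝ → ℝ≥0∞, F = fun k t => ENNReal.ofReal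
    ((μ.real {x | t ≤ Qs f (r k) x} - μ.real {x | t ≤ f x}) * γ t / r k) := ⟨_, rfl⟩
  have hFm : ∀ k, Measurable (F k) := fun k => by
    rw [hF]
    exact ((((hm _).sub (hm _)).mul hγ.measurable).div_const _).ennreal_ofReal
  -- (1) the integrals of `F k`
  have h1 : ∀ k, ∫⁻ t in Ioi 0, F k t ≤ ENNReal.ofReal J := by
    intro k
    have e1 := layer (μ := μ) hγ hγ0 hf hfB hf0
    have e2 := layer (μ := μ) hγ hγ0 (Qs_continuous hf (r k)) (hQB k) (hQ0 k)
    have m2 : Measurable fun t : ℝ => μ {x | t ≤ f x} * ENNReal.ofReal (γ t) := by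
      have : Measurable fun t : ℝ => μ {x | t ≤ f x} :=
        Antitone.measurable fun s t hst => measure_mono fun x hx => le_trans hst hx
      exact this.mul hγ.measurable.ennreal_ofReal
    have e3 : ∫⁻ t in Ioi 0, μ {x | t ≤ Qs f (r k) x} * ENNReal.ofReal (γ t) =
        (∫⁻ t in Ioi 0, μ {x | t ≤ f x} * ENNReal.ofReal (γ t)) +
          ENNReal.ofReal (r k) * ∫⁻ t in Ioi 0, F k t := by
      rw [← lintegral_const_mul _ (hFm k), ← lintegral_add_left m2]
      refine lintegral_congr fun t => ?_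
      rw [hF]
      have hs := hsub k t
      rw [← ofReal_measureReal (μ := μ) (s := {x | t ≤ Qs f (r k) x}),
        ← ofReal_measureReal (μ := μ) (s := {x | t ≤ f x}),
        ← ENNReal.ofReal_mul measureReal_nonneg, ← ENNReal.ofReal_mul measureReal_nonneg,
        ← ENNReal.ofReal_mul (hr0 k).le,
        ← ENNReal.ofReal_add (mul_nonneg measureReal_nonneg (hγ0 t))]
      · congr 1
        have := (hr0 k).ne'
        field_simp
        ring
      · have : 0 ≤ μ.real {x | t ≤ Qs f (r k) x} - μ.real {x | t ≤ f x} := by linarith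
        have h3 := hγ0 t
        have h4 := hr0 k
        positivity
    rw [← e1, ← e2] at e3
    have h2 := hup (r k) (hr0 k) (hrδ k)
    have h3 : ENNReal.ofReal (∫ x, Pr γ (Qs f (r k) x) ∂μ) ≤
        ENNReal.ofReal (∫ x, Pr γ (f x) ∂μ) + ENNReal.ofReal (r k) * ENNReal.ofReal J := by
      rw [← ENNReal.ofReal_mul (hr0 k).le, ← ENNReal.ofReal_add i1 (mul_nonneg (hr0 k).le hJ)]
      apply ENNReal.ofReal_le_ofReal
      linarith
    rw [e3, ENNReal.add_le_add_iff_left ENNReal.ofReal_ne_top] at h3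
    rwa [ENNReal.mul_le_mul_iff_right (by simpa using hr0 k) ENNReal.ofReal_ne_top] at h3
  -- (2) pointwise
  have h2 : ∀ᵐ t : ℝ, μ {x | t ≤ f x} * ENNReal.ofReal (w t) * ENNReal.ofReal (1 / κ) ≤
      liminf (fun k => F k t) atTop := by
    filter_upwards [hq] with t ht
    by_cases htM : t ≤ M
    · rw [hwM t htM]
      simp
    push Not at htM
    by_cases hp : μ.real {x | t ≤ f x} = 0
    · have : μ {x | t ≤ f x} = 0 := by
        rwa [measureReal_eq_zero_iff] at hp
      simp [this]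
    have hp0 : 0 < μ.real {x | t ≤ f x} := lt_of_le_of_ne measureReal_nonneg (Ne.symm hp)
    have hcomp : IsCompact {x | t ≤ f x} := by
      refine hc.isCompact.of_isClosed_subset (isClosed_le continuous_const hf) fun x hx => ?_
      apply subset_tsupport
      have hx' : t ≤ f x := hx
      exact (lt_of_lt_of_le (lt_of_le_of_lt hM0 htM) hx').ne'
    have h3 := hrlim.eventually (iso_union hκ hr₀ hiso (ht htM) hcomp (hM t htM))
    refine le_liminf_of_le (by isBoundedDefault) ?_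
    filter_upwards [h3] with k hk
    rw [← setOf_le_Qs hf (hr0 k).le] at hk
    rw [hF]
    simp only
    rw [← ofReal_measureReal (μ := μ) (s := {x | t ≤ f x}), ← ENNReal.ofReal_mul measureReal_nonneg,
      ← ENNReal.ofReal_mul (mul_nonneg measureReal_nonneg (hw0 t))]
    apply ENNReal.ofReal_le_ofReal
    have h4 := hwγ t htM hp0
    obtain ⟨p, hpd⟩ : ∃ p, p = μ.real {x | t ≤ f x} := ⟨_, rfl⟩
    obtain ⟨q, hqd⟩ : ∃ q, q = μ.real {x | t ≤ Qs f (r k) x} := ⟨_, rfl⟩
    rw [← hpd] at hk h4 hp0 ⊢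
    rw [← hqd] at hk ⊢
    have h5 := hr0 k
    have h6 := hγ0 t
    rw [mul_one_div, div_le_div_iff₀ hκ h5]
    have h7 : p * (r k * √(Real.log (1 / p))) ≤ (q - p) * κ := by
      have h8 : p * (1 + r k * √(Real.log (1 / p)) / κ) - p ≤ q - p := by linarith
      have h9 : p * (1 + r k * √(Real.log (1 / p)) / κ) - p =
          p * (r k * √(Real.log (1 / p))) / κ := by
        field_simp
        ring
      rw [h9, div_le_iff₀ hκ] at h8
      exact h8
    have h10 : p * w t * r k ≤ p * (γ t * √(Real.log (1 / p))) * r k :=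
      mul_le_mul_of_nonneg_right (mul_le_mul_of_nonneg_left h4 hp0.le) h5.le
    have h11 := mul_le_mul_of_nonneg_right h7 h6
    calc p * w t * r k ≤ p * (γ t * √(Real.log (1 / p))) * r k := h10
      _ = p * (r k * √(Real.log (1 / p))) * γ t := by ring
      _ ≤ (q - p) * κ * γ t := h11
      _ = (q - p) * γ t * κ := by ring
  -- (3) Fatou
  have h3 : ∫⁻ t in Ioi 0, μ {x | t ≤ f x} * ENNReal.ofReal (w t) * ENNReal.ofReal (1 / κ) ≤
      ENNReal.ofReal J := by
    calc ∫⁻ t in Ioi 0, μ {x | t ≤ f x} * ENNReal.ofReal (w t) * ENNReal.ofReal (1 / κ)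
        ≤ ∫⁻ t in Ioi 0, liminf (fun k => F k t) atTop :=
          lintegral_mono_ae (ae_restrict_of_ae h2)
      _ ≤ liminf (fun k => ∫⁻ t in Ioi 0, F k t) atTop := lintegral_liminf_le hFm
      _ ≤ liminf (fun _ : ℕ => ENNReal.ofReal J) atTop :=
          liminf_le_liminf (Eventually.of_forall h1)
      _ = ENNReal.ofReal J := by simp
  have m1 : Measurable fun t : ℝ => μ {x | t ≤ f x} * ENNReal.ofReal (w t) := by
    have : Measurable fun t : ℝ => μ {x | t ≤ f x} :=
      Antitone.measurable fun s t hst => measure_mono fun x hx => le_trans hst hx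
    exact this.mul hw.measurable.ennreal_ofReal
  rw [lintegral_mul_const _ m1, ← layer hw hw0 hf hfB hf0, ← ENNReal.ofReal_mul i2,
    ENNReal.ofReal_le_ofReal_iff hJ] at h3
  rw [mul_one_div, div_le_iff₀ hκ] at h3
  linarith

end Vale.Agent.P245.H368
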